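import Vale.Agent.P097.H128.NZ.Defs
import Vale.Agent.P097.H407.Hol

/-! # P097 / program NZ, package NZ-A: analyticity of the root of the chord equation. -/

set_option linter.all false

open Complex Metric Filter Topology Set

namespace Vale.Agent.P097.H65

open Vale.Agent.P097.NZ Vale.Agent.P097.Hol

/-- Holomorphic dependence of integrals over `[0, 1]` on parameters. -/
theorem differentiableOn_unitIntegral {E F : Type*} [NormedAddCommGroup E] [NormedSpace ℂ E]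
    [NormedAddCommGroup F] [NormedSpace ℂ F] [FiniteDimensional ℂ E] [CompleteSpace F]
    {G : E × ℂ → F} {U : Set E} {W : Set ℂ}
    (hU : IsOpen U) (hW : IsOpen W) (hsW : ∀ s ∈ Icc (0 : ℝ) 1, (s : ℂ) ∈ W)
    (hG : DifferentiableOn ℂ G (U ×ˢ W)) :
    DifferentiableOn ℂ (fun x => ∫ s in (0 : ℝ)..1, G (x, (s : ℂ))) U := by
  have : ProperSpace E := FiniteDimensional.proper ℂ E
  intro x₀ hx₀
  apply DifferentiableAt.differentiableWithinAt
  have hUW : IsOpen (U ×ˢ W) := hU.prod hW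
  obtain ⟨r, hr, hrU⟩ : ∃ r > 0, closedBall x₀ (2 * r) ⊆ U := by
    obtain ⟨r, hr, h⟩ := Metric.isOpen_iff.1 hU x₀ hx₀
    exact ⟨r / 4, by positivity, (closedBall_subset_ball (by linarith)).trans h⟩
  have hcomp : IsCompact (closedBall x₀ (2 * r) ×ˢ ((fun s : ℝ => (s : ℂ)) '' Icc (0 : ℝ) 1)) :=
    (isCompact_closedBall _ _).prod (isCompact_Icc.image Complex.continuous_ofReal)
  have hsW' : (fun s : ℝ => (s : ℂ)) '' Icc (0 : ℝ) 1 ⊆ W := by
    rintro _ ⟨s, hs, rfl⟩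
    exact hsW s hs
  have hsub : closedBall x₀ (2 * r) ×ˢ ((fun s : ℝ => (s : ℂ)) '' Icc (0 : ℝ) 1) ⊆ U ×ˢ W :=
    prod_mono hrU hsW'
  obtain ⟨C, hC⟩ := hcomp.exists_bound_of_continuousOn (hG.continuousOn.mono hsub)
  have hIoc : ∀ s ∈ Ioc (0 : ℝ) 1, s ∈ Icc (0 : ℝ) 1 := fun s hs => ⟨hs.1.le, hs.2⟩
  have hdG : ∀ x ∈ ball x₀ (2 * r), ∀ s ∈ Icc (0 : ℝ) 1,
      HasFDerivAt (fun x => G (x, (s : ℂ)))
        ((fderiv ℂ G (x, (s : ℂ))).comp (ContinuousLinearMap.inl ℂ E ℂ)) x := by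
    intro x hx s hs
    have h1 : DifferentiableAt ℂ G (x, (s : ℂ)) :=
      hG.differentiableAt (hUW.mem_nhds ⟨hrU (ball_subset_closedBall hx), hsW s hs⟩)
    have h2 : HasFDerivAt (fun x : E => (x, (s : ℂ))) (ContinuousLinearMap.inl ℂ E ℂ) x :=
      hasFDerivAt_prodMk_left x (s : ℂ)
    exact h1.hasFDerivAt.comp x h2
  have hbound : ∀ x ∈ ball x₀ r, ∀ s ∈ Icc (0 : ℝ) 1,
      ‖(fderiv ℂ G (x, (s : ℂ))).comp (ContinuousLinearMap.inl ℂ E ℂ)‖ ≤ C / r := by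
    intro x hx s hs
    have hxb : ball x r ⊆ ball x₀ (2 * r) := by
      intro y hy
      rw [mem_ball] at hx hy ⊢
      calc dist y x₀ ≤ dist y x + dist x x₀ := dist_triangle _ _ _
        _ < 2 * r := by linarith
    have hx2 : x ∈ ball x₀ (2 * r) := hxb (mem_ball_self hr)
    rw [← (hdG x hx2 s hs).fderiv]
    apply norm_fderiv_le_of_ball hr
    · intro y hy
      exact (hdG y (hxb hy) s hs).differentiableAt.differentiableWithinAt
    · intro y hy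
      exact hC (y, (s : ℂ)) ⟨ball_subset_closedBall (hxb hy), ⟨s, hs, rfl⟩⟩
  have hcontD : ContinuousOn (fderiv ℂ G) (U ×ˢ W) := continuousOn_fderiv_of_differentiableOn hUW hG
  have key := hasFDerivAt_integral_of_dominated_of_fderiv_le
    (μ := MeasureTheory.volume.restrict (Set.Ioc (0 : ℝ) 1))
    (F := fun (x : E) (s : ℝ) => G (x, (s : ℂ)))
    (F' := fun (x : E) (s : ℝ) =>
      ((fderiv ℂ G (x, (s : ℂ))).comp (ContinuousLinearMap.inl ℂ E ℂ)))
    (x₀ := x₀) (s := ball x₀ r) (bound := fun _ => C / r) (𝕜 := ℂ)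
    (ball_mem_nhds x₀ hr) ?_ ?_ ?_ ?_ ?_ ?_
  · simp only [intervalIntegral.integral_of_le zero_le_one]
    exact key.differentiableAt
  · filter_upwards [ball_mem_nhds x₀ hr] with x hx
    apply ContinuousOn.aestronglyMeasurable _ measurableSet_Ioc
    refine hG.continuousOn.comp (by fun_prop) fun s hs => ?_
    exact ⟨hrU (ball_subset_closedBall (ball_subset_ball (by linarith) hx)), hsW s (hIoc s hs)⟩
  · have h1 : ContinuousOn (fun s : ℝ => G (x₀, (s : ℂ))) (Icc (0 : ℝ) 1) := by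
      refine hG.continuousOn.comp (by fun_prop) fun s hs => ?_
      exact ⟨hx₀, hsW s hs⟩
    exact (h1.integrableOn_compact isCompact_Icc).mono_set Ioc_subset_Icc_self
  · apply ContinuousOn.aestronglyMeasurable _ measurableSet_Ioc
    have h1 : ContinuousOn (fun s : ℝ => fderiv ℂ G (x₀, (s : ℂ))) (Set.Ioc (0 : ℝ) 1) := by
      refine hcontD.comp (by fun_prop) fun s hs => ?_
      exact ⟨hx₀, hsW s (hIoc s hs)⟩
    exact h1.clm_comp continuousOn_const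
  · refine (MeasureTheory.ae_restrict_iff' measurableSet_Ioc).2 (Eventually.of_forall ?_)
    intro s hs x hx
    exact hbound x hx s (hIoc s hs)
  · exact MeasureTheory.integrable_const _
  · refine (MeasureTheory.ae_restrict_iff' measurableSet_Ioc).2 (Eventually.of_forall ?_)
    intro s hs x hx
    exact hdG x (ball_subset_ball (by linarith) hx) s (hIoc s hs)

/-- the value of `Kint` for a constant kernel -/
theorem Kint_fun_const (c x : ℂ) : Kint (fun _ => c) x = c * (x ^ 2 / 2 - x) := by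
  unfold Kint
  have h1 : ∀ s : ℝ, x * (c * ((s : ℂ) * x - 1)) = (c * x ^ 2) * (s : ℂ) - c * x := by
    intro s; ring
  simp_rw [h1]
  rw [intervalIntegral.integral_sub, intervalIntegral.integral_const_mul,
    intervalIntegral.integral_ofReal, integral_id, intervalIntegral.integral_const]
  · simp only [sub_zero, one_smul]
    push_cast
    ring
  · exact (Continuous.intervalIntegrable (by fun_prop) _ _)
  · exact (Continuous.intervalIntegrable (by fun_prop) _ _)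

theorem norm_smul_le_three {x : ℂ} (hx : ‖x‖ ≤ 3) {s : ℝ} (hs : s ∈ Icc (0 : ℝ) 1) :
    (s : ℂ) * x ∈ closedBall (0 : ℂ) 3 := by
  rw [mem_closedBall_zero_iff, norm_mul, Complex.norm_real, Real.norm_of_nonneg hs.1]
  nlinarith [hs.1, hs.2, norm_nonneg x]

theorem Kint_congr {K K' : ℂ → ℂ} {x : ℂ} (hx : ‖x‖ ≤ 3)
    (h : ∀ v ∈ closedBall (0 : ℂ) 3, K v = K' v) : Kint K x = Kint K' x := by
  unfold Kint
  apply intervalIntegral.integral_congr
  intro s hs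
  rw [uIcc_of_le zero_le_one] at hs
  simp only
  rw [h _ (norm_smul_le_three hx hs)]

/-- closeness of `Kint K` to the constant case -/
theorem norm_Kint_sub_le {K : ℂ → ℂ} {c x : ℂ} {ε : ℝ} (hK : ContinuousOn K (closedBall 0 3))
    (hε : ∀ v ∈ closedBall (0 : ℂ) 3, ‖K v - c‖ ≤ ε) (hx : ‖x‖ ≤ 5 / 2) :
    ‖Kint K x - c * (x ^ 2 / 2 - x)‖ ≤ 35 / 4 * ε := by
  have hε0 : 0 ≤ ε := (norm_nonneg _).trans (hε 0 (by simp))
  have hx3 : ‖x‖ ≤ 3 := by linarith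
  have hcK : ContinuousOn (fun s : ℝ => x * (K (s * x) * (s * x - 1))) (Icc (0 : ℝ) 1) := by
    apply continuousOn_const.mul
    apply ContinuousOn.mul
    · exact hK.comp (by fun_prop) fun s hs => norm_smul_le_three hx3 hs
    · fun_prop
  rw [← Kint_fun_const]
  unfold Kint
  rw [← intervalIntegral.integral_sub]
  · have h1 : ∀ s ∈ Set.uIoc (0 : ℝ) 1,
        ‖x * (K (s * x) * (s * x - 1)) - x * (c * (s * x - 1))‖ ≤ 35 / 4 * ε := by
      intro s hs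
      rw [uIoc_of_le zero_le_one] at hs
      have hs' : s ∈ Icc (0 : ℝ) 1 := ⟨hs.1.le, hs.2⟩
      have h2 : x * (K (s * x) * (s * x - 1)) - x * (c * (s * x - 1)) =
          x * ((K (s * x) - c) * (s * x - 1)) := by ring
      rw [h2, norm_mul, norm_mul]
      have h3 := hε _ (norm_smul_le_three hx3 hs')
      have h4 : ‖(s : ℂ) * x - 1‖ ≤ 7 / 2 := by
        calc ‖(s : ℂ) * x - 1‖ ≤ ‖(s : ℂ) * x‖ + ‖(1 : ℂ)‖ := norm_sub_le _ _
          _ ≤ 7 / 2 := by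
            rw [norm_mul, Complex.norm_real, Real.norm_of_nonneg hs.1.le, norm_one]
            nlinarith [hs.1, hs.2, norm_nonneg x]
      calc ‖x‖ * (‖K (s * x) - c‖ * ‖(s : ℂ) * x - 1‖) ≤ 5 / 2 * (ε * (7 / 2)) := by gcongr
        _ = 35 / 4 * ε := by ring
    have h5 := intervalIntegral.norm_integral_le_of_norm_le_const h1
    simpa using h5
  · exact (hcK.mono (by rw [uIcc_of_le zero_le_one])).intervalIntegrable
  · exact (Continuous.intervalIntegrable (by fun_prop) _ _)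

/-- Injectivity of `Kint K` near `2` -/
theorem Kint_inj {K : ℂ → ℂ} {c : ℂ} (hc : c ≠ 0) (hK : ContinuousOn K (closedBall 0 3))
    (hε : ∀ v ∈ closedBall (0 : ℂ) 3, ‖K v - c‖ ≤ ‖c‖ / 70)
    (hd : DifferentiableOn ℂ (Kint K) (ball 0 (5 / 2))) {x y : ℂ}
    (hx : x ∈ ball (2 : ℂ) (1 / 4)) (hy : y ∈ ball (2 : ℂ) (1 / 4)) (hx0 : Kint K x = 0)
    (hy0 : Kint K y = 0) : x = y := by
  have hc' : 0 < ‖c‖ := norm_pos_iff.2 hc
  set D : ℂ → ℂ := fun x => Kint K x - c * (x ^ 2 / 2 - x) with hD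
  have hDd : DifferentiableOn ℂ D (ball 0 (5 / 2)) := by
    apply hd.sub
    fun_prop
  have hsub : ∀ z ∈ ball (2 : ℂ) (1 / 4), ball z (1 / 4) ⊆ ball (0 : ℂ) (5 / 2) := by
    intro z hz w hw
    rw [mem_ball, dist_eq_norm] at hz hw
    rw [mem_ball_zero_iff]
    have : w = (w - z) + (z - 2) + 2 := by ring
    calc ‖w‖ = ‖(w - z) + (z - 2) + 2‖ := by rw [← this]
      _ ≤ ‖(w - z) + (z - 2)‖ + ‖(2 : ℂ)‖ := norm_add_le _ _
      _ ≤ ‖w - z‖ + ‖z - 2‖ + 2 := by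
        have := norm_add_le (w - z) (z - 2)
        have h2 : ‖(2 : ℂ)‖ = 2 := by simp
        rw [h2]; linarith
      _ < 5 / 2 := by linarith
  have hD' : ∀ z ∈ ball (2 : ℂ) (1 / 4), ‖deriv D z‖ ≤ ‖c‖ / 2 := by
    intro z hz
    have h1 := norm_fderiv_le_of_ball (f := D) (x := z) (r := 1 / 4) (C := 35 / 4 * (‖c‖ / 70))
      (by norm_num) (hDd.mono (hsub z hz)) (by
        intro w hw
        have := hsub z hz hw
        rw [mem_ball_zero_iff] at this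
        exact norm_Kint_sub_le hK hε this.le)
    rw [← norm_deriv_eq_norm_fderiv] at h1
    calc _ ≤ _ := h1
      _ = ‖c‖ / 2 := by ring
  set g : ℂ → ℂ := fun x => Kint K x - c * x with hg
  have hgd : ∀ z ∈ ball (2 : ℂ) (1 / 4), HasDerivAt g (deriv D z + c * (z - 2)) z := by
    intro z hz
    have hz' : z ∈ ball (0 : ℂ) (5 / 2) := hsub z hz (mem_ball_self (by norm_num))
    have h1 : HasDerivAt D (deriv D z) z :=
      (hDd.differentiableAt (isOpen_ball.mem_nhds hz')).hasDerivAt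
    have h2 : HasDerivAt (fun x : ℂ => c * (x ^ 2 / 2 - x) - c * x) (c * (z - 2)) z := by
      have h3 : HasDerivAt (fun x : ℂ => x ^ 2) (2 * z) z := by simpa using hasDerivAt_pow 2 z
      have h4 := (((h3.div_const 2).sub (hasDerivAt_id z)).const_mul c).sub
        ((hasDerivAt_id z).const_mul c)
      have h5 : c * (2 * z / 2 - 1) - c * 1 = c * (z - 2) := by ring
      rw [← h5]
      exact h4
    have h5 := h1.add h2
    have h6 : g = D + fun x : ℂ => c * (x ^ 2 / 2 - x) - c * x := by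
      ext w
      simp only [hg, hD, Pi.add_apply]
      ring
    rw [h6]
    exact h5
  have hgb : ∀ z ∈ ball (2 : ℂ) (1 / 4), ‖deriv g z‖ ≤ 3 / 4 * ‖c‖ := by
    intro z hz
    rw [(hgd z hz).deriv]
    have hz' : ‖z - 2‖ < 1 / 4 := by rwa [mem_ball, dist_eq_norm] at hz
    calc ‖deriv D z + c * (z - 2)‖ ≤ ‖deriv D z‖ + ‖c * (z - 2)‖ := norm_add_le _ _
      _ ≤ ‖c‖ / 2 + ‖c‖ * (1 / 4) := by
        rw [norm_mul]
        gcongr
        exact hD' z hz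
      _ = 3 / 4 * ‖c‖ := by ring
  have key := (convex_ball (2 : ℂ) (1 / 4)).norm_image_sub_le_of_norm_deriv_le
    (fun z hz => (hgd z hz).differentiableAt) hgb hx hy
  have h6 : g y - g x = -(c * (y - x)) := by
    simp only [hg, hx0, hy0]; ring
  rw [h6, norm_neg, norm_mul] at key
  have h7 : ‖y - x‖ = 0 := by
    by_contra hne
    have : 0 < ‖y - x‖ := lt_of_le_of_ne (norm_nonneg _) (Ne.symm hne)
    nlinarith [mul_pos hc' this]
  rw [norm_sub_eq_zero_iff] at h7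
  exact h7.symm

/-- A root with uniqueness is the chosen root. -/
theorem root_eq_of_unique {K : ℂ → ℂ} {y : ℂ} (hy : y ∈ ball (2 : ℂ) (1 / 4)) (hy0 : Kint K y = 0)
    (hu : ∀ x ∈ ball (2 : ℂ) (1 / 4), Kint K x = 0 → x = y) : root K = y := by
  classical
  have h : ∃ x, x ∈ ball (2 : ℂ) (1 / 4) ∧ Kint K x = 0 := ⟨y, hy, hy0⟩
  unfold root
  rw [dif_pos h]
  exact hu _ h.choose_spec.1 h.choose_spec.2

/-- package NZ-A -/
theorem rootA : RootA := by
  intro K p₀ c hc hA hKc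
  have hc' : 0 < ‖c‖ := norm_pos_iff.2 hc
  set Ku : (ℂ × ℂ) × ℂ → ℂ := fun q => K q.1 q.2 with hKu
  -- the good open set
  set N : Set ((ℂ × ℂ) × ℂ) := {q | AnalyticAt ℂ Ku q ∧ ‖Ku q - c‖ < ‖c‖ / 70} with hN
  have hNo : IsOpen N := by
    rw [isOpen_iff_mem_nhds]
    rintro q ⟨hq1, hq2⟩
    have h1 : ∀ᶠ q' in 𝓝 q, AnalyticAt ℂ Ku q' := hq1.eventually_analyticAt
    have h2 : ∀ᶠ q' in 𝓝 q, ‖Ku q' - c‖ < ‖c‖ / 70 :=
      (hq1.continuousAt.sub continuousAt_const).norm.eventually (gt_mem_nhds hq2)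
    filter_upwards [h1, h2] with q' h3 h4 using ⟨h3, h4⟩
  have hsub : ({p₀} : Set (ℂ × ℂ)) ×ˢ closedBall (0 : ℂ) 3 ⊆ N := by
    rintro ⟨p, v⟩ ⟨hp, hv⟩
    simp only [mem_singleton_iff] at hp
    subst hp
    refine ⟨hA v hv, ?_⟩
    have : Ku (p, v) = c := hKc v hv
    rw [this, sub_self, norm_zero]
    positivity
  obtain ⟨U, V, hU, hV, hpU, hVb, hUV⟩ := generalized_tube_lemma isCompact_singleton
    (isCompact_closedBall (0 : ℂ) 3) hNo hsub
  have hp₀ : p₀ ∈ U := hpU (mem_singleton p₀)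
  -- joint analyticity of `Kint`
  set f : (ℂ × ℂ) × ℂ → ℂ := fun q => Kint (K q.1) q.2 with hf
  have hUb : IsOpen (U ×ˢ ball (0 : ℂ) (5 / 2)) := hU.prod isOpen_ball
  have hfd : DifferentiableOn ℂ f (U ×ˢ ball (0 : ℂ) (5 / 2)) := by
    have hG : DifferentiableOn ℂ (fun z : ((ℂ × ℂ) × ℂ) × ℂ =>
        z.1.2 * (K z.1.1 (z.2 * z.1.2) * (z.2 * z.1.2 - 1)))
        ((U ×ˢ ball (0 : ℂ) (5 / 2)) ×ˢ ball (0 : ℂ) (6 / 5)) := by
      have h1 : DifferentiableOn ℂ (fun z : ((ℂ × ℂ) × ℂ) × ℂ => Ku (z.1.1, z.2 * z.1.2))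
          ((U ×ˢ ball (0 : ℂ) (5 / 2)) ×ˢ ball (0 : ℂ) (6 / 5)) := by
        have h2 : DifferentiableOn ℂ Ku (U ×ˢ V) := fun q hq =>
          (hUV hq).1.differentiableAt.differentiableWithinAt
        refine h2.comp (by fun_prop) ?_
        rintro ⟨⟨p, x⟩, s⟩ ⟨⟨hp, hx⟩, hs⟩
        refine ⟨hp, hVb ?_⟩
        simp only [mem_ball_zero_iff] at hx hs
        rw [mem_closedBall_zero_iff, norm_mul]
        nlinarith [norm_nonneg x, norm_nonneg s]
      have h3 : DifferentiableOn ℂ (fun z : ((ℂ × ℂ) × ℂ) × ℂ => z.1.2)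
          ((U ×ˢ ball (0 : ℂ) (5 / 2)) ×ˢ ball (0 : ℂ) (6 / 5)) := by fun_prop
      have h4 : DifferentiableOn ℂ (fun z : ((ℂ × ℂ) × ℂ) × ℂ => z.2 * z.1.2 - 1)
          ((U ×ˢ ball (0 : ℂ) (5 / 2)) ×ˢ ball (0 : ℂ) (6 / 5)) := by fun_prop
      exact h3.mul (h1.mul h4)
    have h5 := differentiableOn_unitIntegral (G := fun z : ((ℂ × ℂ) × ℂ) × ℂ =>
        z.1.2 * (K z.1.1 (z.2 * z.1.2) * (z.2 * z.1.2 - 1))) hUb isOpen_ball (by
          intro s hs
          rw [mem_ball_zero_iff, Complex.norm_real, Real.norm_of_nonneg hs.1]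
          linarith [hs.2]) hG
    exact h5
  have hfA : ∀ q ∈ U ×ˢ ball (0 : ℂ) (5 / 2), AnalyticAt ℂ f q := fun q hq =>
    analyticAt_of_differentiableOn hUb hfd hq
  -- uniqueness for `p ∈ U`
  have huniq : ∀ p ∈ U, ∀ x ∈ ball (2 : ℂ) (1 / 4), ∀ y ∈ ball (2 : ℂ) (1 / 4),
      Kint (K p) x = 0 → Kint (K p) y = 0 → x = y := by
    intro p hp x hx y hy hx0 hy0
    refine Kint_inj hc ?_ ?_ ?_ hx hy hx0 hy0
    · intro v hv
      have h1 : ContinuousAt Ku (p, v) := (hUV (⟨hp, hVb hv⟩ : (p, v) ∈ U ×ˢ V)).1.continuousAt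
      have h2 : ContinuousAt (fun v : ℂ => ((p, v) : (ℂ × ℂ) × ℂ)) v := by fun_prop
      exact (ContinuousAt.comp (f := fun v : ℂ => ((p, v) : (ℂ × ℂ) × ℂ)) h1 h2).continuousWithinAt
    · intro v hv
      exact (hUV (⟨hp, hVb hv⟩ : (p, v) ∈ U ×ˢ V)).2.le
    · have h1 : DifferentiableOn ℂ (fun x : ℂ => f (p, x)) (ball 0 (5 / 2)) :=
        hfd.comp (f := fun x : ℂ => ((p, x) : (ℂ × ℂ) × ℂ)) (by fun_prop) fun x hx => ⟨hp, hx⟩
      exact h1
  -- the implicit function theorem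
  have h2mem : ((p₀, 2) : (ℂ × ℂ) × ℂ) ∈ U ×ˢ ball (0 : ℂ) (5 / 2) :=
    ⟨hp₀, by rw [mem_ball_zero_iff]; norm_num⟩
  have hf2 : f (p₀, 2) = 0 := by
    have h1 : f (p₀, 2) = Kint (fun _ => c) 2 := Kint_congr (by norm_num) hKc
    rw [h1, Kint_fun_const]
    ring
  have hcd : ContDiffAt ℂ (⊤ : WithTop ℕ∞) f (p₀, 2) := (hfA _ h2mem).contDiffAt
  have hder : (fderiv ℂ f (p₀, 2) ∘L ContinuousLinearMap.inr ℂ (ℂ × ℂ) ℂ) 1 = c := by
    have h1 : HasFDerivAt f (fderiv ℂ f (p₀, 2)) (p₀, 2) :=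
      (hfA _ h2mem).differentiableAt.hasFDerivAt
    have h2 : HasFDerivAt (fun x : ℂ => ((p₀, x) : (ℂ × ℂ) × ℂ))
        (ContinuousLinearMap.inr ℂ (ℂ × ℂ) ℂ) 2 := hasFDerivAt_prodMk_right p₀ 2
    have h3 : HasFDerivAt (fun x : ℂ => f (p₀, x))
        (fderiv ℂ f (p₀, 2) ∘L ContinuousLinearMap.inr ℂ (ℂ × ℂ) ℂ) 2 := h1.comp 2 h2
    have h4 : HasDerivAt (fun x : ℂ => f (p₀, x))
        ((fderiv ℂ f (p₀, 2) ∘L ContinuousLinearMap.inr ℂ (ℂ × ℂ) ℂ) 1) 2 := h3.hasDerivAt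
    have h5 : (fun x : ℂ => f (p₀, x)) =ᶠ[𝓝 2] fun x : ℂ => c * (x ^ 2 / 2 - x) := by
      have : ∀ᶠ x : ℂ in 𝓝 2, x ∈ ball (2 : ℂ) (1 / 4) := ball_mem_nhds _ (by norm_num)
      filter_upwards [this] with x hx
      have hx3 : ‖x‖ ≤ 3 := by
        rw [mem_ball, dist_eq_norm] at hx
        have h6 : ‖x‖ ≤ ‖x - 2‖ + ‖(2 : ℂ)‖ := by
          have := norm_add_le (x - 2) 2
          simpa using this
        have h7 : ‖(2 : ℂ)‖ = 2 := by simp
        rw [h7] at h6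
        linarith
      have h6 : f (p₀, x) = Kint (fun _ => c) x := Kint_congr hx3 hKc
      rw [h6, Kint_fun_const]
    have h8 : HasDerivAt (fun x : ℂ => c * (x ^ 2 / 2 - x)) c 2 := by
      have h3 : HasDerivAt (fun x : ℂ => x ^ 2) (2 * 2) 2 := by simpa using hasDerivAt_pow 2 (2 : ℂ)
      have h4 := ((h3.div_const 2).sub (hasDerivAt_id (2 : ℂ))).const_mul c
      have h5 : c * (2 * 2 / 2 - 1) = c := by ring
      exact (show HasDerivAt (fun x : ℂ => c * (x ^ 2 / 2 - x)) (c * (2 * 2 / 2 - 1)) 2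
        from h4).congr_deriv h5
    exact h4.unique (h8.congr_of_eventuallyEq h5)
  have hinv : (fderiv ℂ f (p₀, 2) ∘L ContinuousLinearMap.inr ℂ (ℂ × ℂ) ℂ).IsInvertible := by
    refine ⟨ContinuousLinearEquiv.unitsEquivAut ℂ (Units.mk0 c hc), ?_⟩
    ext
    simpa using hder.symm
  have hn0 : (⊤ : WithTop ℕ∞) ≠ 0 := by simp
  set ψ := hcd.implicitFunction hn0 hinv with hψ
  have hψ0 : ψ p₀ = 2 := hcd.implicitFunction_apply_self hn0 hinv
  have hψA : AnalyticAt ℂ ψ p₀ := (hcd.contDiffAt_implicitFunction hn0 hinv).analyticAt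
  have hψz : ∀ᶠ p in 𝓝 p₀, f (p, ψ p) = f (p₀, 2) :=
    hcd.eventually_apply_implicitFunction hn0 hinv
  have hψb : ∀ᶠ p in 𝓝 p₀, ψ p ∈ ball (2 : ℂ) (1 / 4) := by
    apply hψA.continuousAt.eventually_mem
    rw [hψ0]
    exact ball_mem_nhds _ (by norm_num)
  have hall : ∀ᶠ p in 𝓝 p₀, root (K p) = ψ p ∧ ψ p ∈ ball (2 : ℂ) (1 / 4) ∧
      Kint (K p) (ψ p) = 0 ∧ ∀ x ∈ ball (2 : ℂ) (1 / 4), Kint (K p) x = 0 → x = ψ p := by
    filter_upwards [hψz, hψb, hU.mem_nhds hp₀] with p h1 h2 h3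
    have h4 : Kint (K p) (ψ p) = 0 := by
      rw [hf2] at h1
      exact h1
    have h5 : ∀ x ∈ ball (2 : ℂ) (1 / 4), Kint (K p) x = 0 → x = ψ p := fun x hx hx0 =>
      huniq p h3 x hx (ψ p) h2 hx0 h4
    exact ⟨root_eq_of_unique h2 h4 h5, h2, h4, h5⟩
  refine ⟨?_, ?_, ?_⟩
  · refine hψA.congr ?_
    filter_upwards [hall] with p hp using hp.1.symm
  · rw [hall.self_of_nhds.1, hψ0]
  · filter_upwards [hall] with p hp
    rw [hp.1]
    exact ⟨hp.2.1, hp.2.2.1, hp.2.2.2⟩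

end Vale.Agent.P097.H65
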